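import Vale.Agent.P073.H655.RowsT
import Vale.Agent.P073.PK.Sob560a
import Mathlib.MeasureTheory.Integral.IntervalIntegral.LebesgueDifferentiationThm
import Mathlib.MeasureTheory.Measure.Hausdorff

/-!
# P073: the weak derivative of a component vanishes where the component takes values in a null set
-/

namespace Vale.Agent.P073.H842

open MeasureTheory Set Filter Topology Metric
open Vale.Agent.P073.St
open Vale.Agent.P073.AB (cl)
open Vale.Agent.P073.PK (cl_apply)
open Vale.Agent.P073.HB (WeakDeriv GoodSeg ae_goodSeg)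
open scoped ContDiff ENNReal NNReal

/-- A set on which `g` is bounded below by a multiple of the distance is null if its image is. -/
theorem null_of_anti {g : ℝ → ℝ} {S : Set ℝ} {K : ℝ≥0}
    (h : ∀ s ∈ S, ∀ t ∈ S, |s - t| ≤ K * |g s - g t|) (hN : volume (g '' S) = 0) :
    volume S = 0 := by
  have hinj : InjOn g S := by
    intro s hs t ht hst
    have h1 := h s hs t ht
    rw [hst, sub_self, abs_zero, mul_zero] at h1
    exact sub_eq_zero.1 (abs_nonpos_iff.1 h1)
  have hleft := hinj.leftInvOn_invFunOn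
  have hL : LipschitzOnWith K (Function.invFunOn g S) (g '' S) := by
    refine LipschitzOnWith.of_dist_le_mul ?_
    rintro _ ⟨s, hs, rfl⟩ _ ⟨t, ht, rfl⟩
    rw [hleft hs, hleft ht, Real.dist_eq, Real.dist_eq]
    exact h s hs t ht
  have himg : Function.invFunOn g S '' (g '' S) = S := by
    rw [image_image]
    exact (image_congr hleft).trans (image_id' S)
  have h1 := hL.hausdorffMeasure_image_le (d := 1) zero_le_one
  rw [himg, hausdorffMeasure_real, hN, mul_zero] at h1
  exact nonpos_iff_eq_zero.1 h1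

/-- **Lusin's lemma in one variable**: a function takes values in a null set with a non zero
derivative only on a null set. -/
theorem null_of_deriv {g : ℝ → ℝ} {N : Set ℝ} (hN : volume N = 0) :
    volume {t : ℝ | g t ∈ N ∧ ∃ c, c ≠ 0 ∧ HasDerivAt g c t} = 0 := by
  set A : ℕ → Set ℝ := fun n => {t | g t ∈ N ∧
    ∀ s, |s - t| < 1 / (n + 1 : ℝ) → |s - t| ≤ (n + 1 : ℝ) * |g s - g t|} with hA
  set B : ℕ → ℤ → Set ℝ := fun n m => A n ∩ Ico ((m : ℝ) / (n + 2)) ((m + 1 : ℝ) / (n + 2)) with hB
  have hB0 : ∀ n m, volume (B n m) = 0 := by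
    intro n m
    refine null_of_anti (g := g) (K := (n + 1 : ℝ≥0)) ?_ ?_
    · rintro s ⟨hs, hs'⟩ t ⟨ht, ht'⟩
      have h1 : |s - t| < 1 / (n + 1 : ℝ) := by
        have e : ((m + 1 : ℝ) / (n + 2)) - ((m : ℝ) / (n + 2)) = 1 / (n + 2 : ℝ) := by
          field_simp; ring
        have h2 : |s - t| < 1 / (n + 2 : ℝ) := by
          rw [abs_lt]
          constructor <;> [skip; skip] <;> first
            | linarith [hs'.1, hs'.2, ht'.1, ht'.2]
        refine h2.trans_le ?_
        apply one_div_le_one_div_of_le (by positivity)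
        linarith
      have h3 := ht.2 s h1
      push_cast
      exact h3
    · refine measure_mono_null ?_ hN
      rintro _ ⟨s, hs, rfl⟩
      exact hs.1.1
  refine measure_mono_null ?_ (measure_iUnion_null fun n => measure_iUnion_null fun m => hB0 n m)
  rintro t ⟨ht, c, hc, hd⟩
  have hc' : 0 < |c| / 2 := by positivity
  have h1 := hd.isLittleO.def hc'
  obtain ⟨δ, hδ, hball⟩ := Metric.eventually_nhds_iff.1 h1
  obtain ⟨n, hn⟩ := exists_nat_gt (max (1 / δ) (2 / |c|))
  have hn1 : 1 / δ < n + 1 := by linarith [le_max_left (1 / δ) (2 / |c|)]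
  have hn2 : 2 / |c| < n + 1 := by linarith [le_max_right (1 / δ) (2 / |c|)]
  have htA : t ∈ A n := by
    refine ⟨ht, fun s hs => ?_⟩
    have hs2 : dist s t < δ := by
      rw [Real.dist_eq]
      refine hs.trans ?_
      rw [div_lt_iff₀ (by positivity)]
      rw [div_lt_iff₀ hδ] at hn1
      linarith [mul_comm δ (n + 1 : ℝ)]
    have h2 := hball hs2
    simp only [smul_eq_mul, Real.norm_eq_abs] at h2
    have h3 : |(s - t) * c| ≤ |g s - g t| + |g s - g t - (s - t) * c| := by
      have := abs_sub_abs_le_abs_sub (g s - g t) (g s - g t - (s - t) * c)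
      have h4 : (s - t) * c = (g s - g t) - (g s - g t - (s - t) * c) := by ring
      calc |(s - t) * c| = |(g s - g t) - (g s - g t - (s - t) * c)| := by rw [← h4]
        _ ≤ _ := abs_sub _ _
    rw [abs_mul] at h3
    have h5 : |c| / 2 * |s - t| ≤ |g s - g t| := by nlinarith [abs_nonneg (s - t)]
    have h6 : |s - t| ≤ 2 / |c| * |g s - g t| := by
      have hcp : 0 < |c| := abs_pos.2 hc
      rw [div_mul_eq_mul_div, le_div_iff₀ hcp]
      linarith
    exact h6.trans (mul_le_mul_of_nonneg_right hn2.le (abs_nonneg _))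
  refine mem_iUnion.2 ⟨n, mem_iUnion.2 ⟨⌊t * (n + 2)⌋, htA, ?_, ?_⟩⟩
  · rw [div_le_iff₀ (by positivity)]
    exact Int.floor_le _
  · rw [lt_div_iff₀ (by positivity)]
    exact Int.lt_floor_add_one _

/-- Absolutely continuous functions: the derivative vanishes almost everywhere on the preimage of a
null set. -/
theorem ae_zero_of_integral {g h : ℝ → ℝ} (hi : IntervalIntegrable h volume 0 1)
    (hg : ∀ t ∈ Icc (0 : ℝ) 1, g t = g 0 + ∫ s in (0 : ℝ)..t, h s) {N : Set ℝ}
    (hN : volume N = 0) : ∀ᵐ t : ℝ, t ∈ Ioo (0 : ℝ) 1 → g t ∈ N → h t = 0 := by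
  have h1 := hi.ae_hasDerivAt_integral
  have h2 : ∀ᵐ t : ℝ, ¬ (g t ∈ N ∧ ∃ c, c ≠ 0 ∧ HasDerivAt g c t) := by
    rw [ae_iff]
    simpa only [not_not] using null_of_deriv hN
  filter_upwards [h1, h2] with t ht1 ht2 ht hgt
  by_contra hne
  apply ht2
  refine ⟨hgt, h t, hne, ?_⟩
  have h3 := ht1 (by rw [uIcc_of_le zero_le_one]; exact Ioo_subset_Icc_self ht) 0
    (by rw [uIcc_of_le zero_le_one]; exact ⟨le_rfl, zero_le_one⟩)
  have h4 := h3.const_add (g 0)
  refine h4.congr_of_eventuallyEq ?_
  filter_upwards [Ioo_mem_nhds ht.1 ht.2] with s hs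
  exact hg s (Ioo_subset_Icc_self hs)

end Vale.Agent.P073.H842
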