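import Vale.Agent.P073.H842.Van

/-!
# P073: row V
-/

namespace Vale.Agent.P073.H842

open MeasureTheory Set Filter Topology Metric
open Vale.Agent.P073.St
open Vale.Agent.P073.AB (cl)
open Vale.Agent.P073.PK (cl_apply)
open Vale.Agent.P073.HB (WeakDeriv GoodSeg ae_goodSeg)
open scoped ContDiff ENNReal NNReal

/-- one component of a good segment in a coordinate direction -/
theorem seg_zero {f : V → V} {F : V → Mat} {x : V} {i j : Fin 3} {r : ℝ} (hr : r ≠ 0)
    (hs : GoodSeg f (fun y => cl (F y)) x (Pi.single j r)) {N : Set ℝ} (hN : volume N = 0) :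
    ∀ᵐ t : ℝ, t ∈ Ioo (0 : ℝ) 1 → f (x + t • Pi.single j r) i ∈ N →
      F (x + t • Pi.single j r) i j = 0 := by
  obtain ⟨h1, h2⟩ := hs
  have hc : ∀ y, cl (F y) (Pi.single j r) i = F y i j * r := by
    intro y
    rw [cl_apply]
    simp [Pi.single_apply]
  have hi : IntervalIntegrable (fun s : ℝ => F (x + s • Pi.single j r) i j * r) volume 0 1 := by
    have h3 := (ContinuousLinearMap.proj (R := ℝ) (φ := fun _ : Fin 3 => ℝ) i)
    have h4 : IntervalIntegrable (fun s : ℝ => (ContinuousLinearMap.proj (R := ℝ)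
        (φ := fun _ : Fin 3 => ℝ) i) (cl (F (x + s • Pi.single j r)) (Pi.single j r)))
        volume 0 1 := by
      rw [intervalIntegrable_iff] at h1 ⊢
      exact (ContinuousLinearMap.proj (R := ℝ) (φ := fun _ : Fin 3 => ℝ) i).integrable_comp h1
    refine h4.congr ?_
    refine fun s _ => ?_
    exact hc _
  have hg : ∀ t ∈ Icc (0 : ℝ) 1, f (x + t • Pi.single j r) i =
      f (x + (0 : ℝ) • Pi.single j r) i +
        ∫ s in (0 : ℝ)..t, F (x + s • Pi.single j r) i j * r := by
    intro t ht
    have h3 := congrFun (h2 t ht) i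
    rw [h3, Pi.add_apply, zero_smul, add_zero]
    congr 1
    have hit : IntervalIntegrable (fun s : ℝ => cl (F (x + s • Pi.single j r)) (Pi.single j r))
        volume 0 t := by
      refine h1.mono_set ?_
      rw [uIcc_of_le ht.1, uIcc_of_le zero_le_one]
      exact Icc_subset_Icc le_rfl ht.2
    have h4 := (ContinuousLinearMap.proj (R := ℝ)
      (φ := fun _ : Fin 3 => ℝ) i).intervalIntegral_comp_comm hit
    simp only [ContinuousLinearMap.proj_apply] at h4
    rw [← h4]
    refine intervalIntegral.integral_congr fun s _ => ?_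
    exact hc _
  filter_upwards [ae_zero_of_integral hi hg hN] with t ht h5 h6
  exact (mul_eq_zero.1 (ht h5 h6)).resolve_right hr

theorem bad_null {p : ℝ} {Ω : Set V} {f : V → V} {F : V → Mat} {i j : Fin 3} {N : Set ℝ}
    (hp : 1 ≤ p) (hΩ : IsBoundedDomain Ω) (hS : IsSobolev p Ω f F) (hf : ContinuousOn f Ω)
    (hN : volume N = 0) (hNm : MeasurableSet N) :
    volume {x | x ∈ Ω ∧ f x i ∈ N ∧ F x i j ≠ 0} = 0 := by
  have hv := PK.volume_ne_top_of_domain hΩ
  set B : Set V := {x | x ∈ Ω ∧ f x i ∈ N ∧ F x i j ≠ 0} with hB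
  have hBm : NullMeasurableSet B := by
    have h1 : AEMeasurable (fun x => f x i) (volume.restrict Ω) :=
      ((continuous_apply i).comp_continuousOn hf).aemeasurable hΩ.1.measurableSet
    have h2 : AEMeasurable (fun x => F x i j) (volume.restrict Ω) :=
      (hS.2.1 i j).aestronglyMeasurable.aemeasurable
    have h3 : NullMeasurableSet ((fun x => f x i) ⁻¹' N) (volume.restrict Ω) :=
      h1.nullMeasurableSet_preimage hNm
    have h4 : NullMeasurableSet ((fun x => F x i j) ⁻¹' {0}ᶜ) (volume.restrict Ω) :=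
      h2.nullMeasurableSet_preimage (measurableSet_singleton 0).compl
    have h5 := h3.inter h4
    rw [nullMeasurableSet_restrict hΩ.1.measurableSet.nullMeasurableSet] at h5
    have e : B = ((fun x => f x i) ⁻¹' N ∩ (fun x => F x i j) ⁻¹' {0}ᶜ) ∩ Ω := by
      ext x
      simp only [hB, mem_setOf_eq, mem_inter_iff, mem_preimage, mem_compl_iff, mem_singleton_iff]
      tauto
    rw [e]
    exact h5
  obtain ⟨B', hB'B, hB'm, hB'e⟩ := hBm.exists_measurable_subset_ae_eq
  rw [← measure_congr hB'e]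
  refine measure_null_of_locally_null B' fun x0 hx0 => ?_
  have hx0Ω : x0 ∈ Ω := (hB'B hx0).1
  obtain ⟨r, hr, hball⟩ := Metric.isOpen_iff.1 hΩ.1 x0 hx0Ω
  set v : V := Pi.single j (r / 4) with hvd
  have hr4 : r / 4 ≠ 0 := by positivity
  have hvn : ‖v‖ = r / 4 := by
    rw [hvd, Pi.norm_single, Real.norm_of_nonneg (by positivity)]
  set P : Set (V × ℝ) := {q | q.1 ∈ ball x0 (r / 2) ∧ q.2 ∈ Ioo (0 : ℝ) 1 ∧
    q.1 + q.2 • v ∈ B'} with hP
  have hPm : MeasurableSet P := by
    have h1 : MeasurableSet {q : V × ℝ | q.1 ∈ ball x0 (r / 2)} :=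
      measurable_fst measurableSet_ball
    have h2 : MeasurableSet {q : V × ℝ | q.2 ∈ Ioo (0 : ℝ) 1} :=
      measurable_snd measurableSet_Ioo
    have h3 : MeasurableSet {q : V × ℝ | q.1 + q.2 • v ∈ B'} := by
      have : Continuous fun q : V × ℝ => q.1 + q.2 • v := by fun_prop
      exact this.measurable hB'm
    exact h1.inter (h2.inter h3)
  have hseg := ae_goodSeg (μ := (volume : Measure V)) hΩ.1 hf
    (PK.IsSob.locallyIntegrableOn_cl hp hv hS) (PK.IsSob.weakDeriv hp hv hS) v
  have hP0 : ((volume : Measure V).prod (volume : Measure ℝ)) P = 0 := by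
    rw [Measure.measure_prod_null hPm]
    filter_upwards [hseg] with x hx
    by_cases hxb : x ∈ ball x0 (r / 2)
    · have hg := hx fun s hs => by
        apply hball
        rw [mem_ball] at hxb ⊢
        have e1 : dist (x + s • v) x0 ≤ dist x x0 + ‖s • v‖ := by
          rw [dist_eq_norm, dist_eq_norm, add_sub_right_comm]
          exact norm_add_le _ _
        have e2 : ‖s • v‖ ≤ r / 4 := by
          rw [norm_smul, Real.norm_of_nonneg hs.1, hvn]
          nlinarith [hs.2]
        linarith
      have h1 := seg_zero (i := i) hr4 hg hN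
      rw [Pi.zero_apply]
      refine measure_mono_null ?_ (ae_iff.1 h1)
      intro t ht
      obtain ⟨-, h2, h3⟩ := ht
      have h4 := hB'B h3
      intro h5
      exact h4.2.2 (h5 h2 h4.2.1)
    · rw [Pi.zero_apply]
      have : Prod.mk x ⁻¹' P = ∅ := by
        ext t
        simp only [mem_preimage, hP, mem_setOf_eq, mem_empty_iff_false, iff_false]
        exact fun h => hxb h.1
      rw [this, measure_empty]
  have hsw : ∀ᵐ s : ℝ, volume ((fun x : V => (x, s)) ⁻¹' P) = 0 := by
    have h1 : ((volume : Measure ℝ).prod (volume : Measure V)) (Prod.swap ⁻¹' P) = 0 := by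
      rw [← Measure.prod_swap, Measure.map_apply measurable_swap hPm] at hP0
      exact hP0
    exact Measure.measure_ae_null_of_prod_null h1
  obtain ⟨s, hs, hsI⟩ : ∃ s : ℝ, volume ((fun x : V => (x, s)) ⁻¹' P) = 0 ∧ s ∈ Ioo (0 : ℝ) 1 := by
    by_contra hcon
    push Not at hcon
    have h1 : volume (Ioo (0 : ℝ) 1) = 0 := by
      refine measure_mono_null ?_ (ae_iff.1 hsw)
      intro s hs h2
      exact hcon s h2 hs
    rw [Real.volume_Ioo] at h1
    simp at h1
  refine ⟨ball x0 (r / 4) ∩ B', ?_, ?_⟩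
  · rw [inter_comm]
    exact inter_mem_nhdsWithin B' (ball_mem_nhds x0 (by positivity))
  · rw [← measure_preimage_add_right volume (s • v)]
    refine measure_mono_null ?_ hs
    rintro x ⟨hx1, hx2⟩
    refine ⟨?_, hsI, hx2⟩
    rw [mem_ball] at hx1 ⊢
    have e1 : dist x x0 ≤ dist (x + s • v) x0 + ‖s • v‖ := by
      rw [dist_eq_norm, dist_eq_norm]
      calc ‖x - x0‖ = ‖(x + s • v - x0) - s • v‖ := by congr 1; abel
        _ ≤ _ := norm_sub_le _ _
    have e2 : ‖s • v‖ ≤ r / 4 := by
      rw [norm_smul, Real.norm_of_nonneg hsI.1.le, hvn]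
      nlinarith [hsI.2]
    change dist x x0 < r / 2
    linarith

/-- **Row V** -/
theorem specVan : H655.SpecVan := by
  intro p Ω f F i N hp hΩ hS hf hN
  have hN' : volume (toMeasurable volume N) = 0 := by rw [measure_toMeasurable]; exact hN
  have H : ∀ j, ∀ᵐ x ∂(volume : Measure V), x ∈ Ω → f x i ∈ N → F x i j = 0 := by
    intro j
    have h1 := bad_null (i := i) (j := j) hp hΩ hS hf hN' (measurableSet_toMeasurable _ _)
    rw [ae_iff]
    refine measure_mono_null ?_ h1
    intro x hx
    simp only [mem_setOf_eq, Classical.not_imp] at hx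
    exact ⟨hx.1, subset_toMeasurable _ _ hx.2.1, hx.2.2⟩
  filter_upwards [ae_all_iff.2 H] with x hx h1 h2 j using hx j h1 h2

end Vale.Agent.P073.H842
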